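import Vale.Agent.P340.SumSpec

/-!
# P340: strong normalization and the Barendregt-Geuvers-Klop implication for mixed sums

For two pure type specifications `P` and `Q` and any family `X` of pairs of sorts, the mixed sum
keeps `P` and `Q` side by side and adds the product rules `(s, t, t)` with `s` in `P`, `t` in `Q`
and `X s t`.  It is strongly normalizing iff `P` and `Q` are, and it satisfies the implication from
weak to strong normalization as soon as `P` and `Q` do.
-/

namespace Vale.Agent.Results.P340.MixedSum

open Vale.Agent.P340

universe u v

theorem result {S : Type u} {T : Type v} (P : Spec S) (Q : Spec T) (X : S → T → Prop) :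
    (SN (Spec.mix P Q X) ↔ SN P ∧ SN Q) ∧
      ((WN P → SN P) → (WN Q → SN Q) → WN (Spec.mix P Q X) → SN (Spec.mix P Q X)) :=
  ⟨Spec.mix_sn_iff P Q X, Spec.mix_bgk P Q X⟩

end Vale.Agent.Results.P340.MixedSum
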