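import Vale.Agent.P340.SigmaSpec

/-!
# P340: strong normalization and the Barendregt-Geuvers-Klop implication for stratified sums

For a family `P i` of pure type specifications indexed by a partial order, the stratified sum keeps
all the `P i` side by side and adds any family of product rules `(a, b, b)` where the sort `a` lies
strictly below the sort `b`.  It is strongly normalizing iff all the `P i` are, and it satisfies the
implication from weak to strong normalization as soon as all the `P i` do.
-/

namespace Vale.Agent.Results.P340.StratifiedSum

open Vale.Agent.P340

universe u w

theorem result {I : Type w} [PartialOrder I] {S : I → Type u} (P : ∀ i, Spec (S i))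
    (X : (Σ i, S i) → (Σ i, S i) → Prop) :
    (SN (Spec.sigma P X) ↔ ∀ i, SN (P i)) ∧
      ((∀ i, WN (P i) → SN (P i)) → WN (Spec.sigma P X) → SN (Spec.sigma P X)) :=
  ⟨Spec.sigma_sn_iff P X, Spec.sigma_bgk P X⟩

end Vale.Agent.Results.P340.StratifiedSum
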