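import Vale.Agent.P340.Dep.DepElim
import Vale.Agent.P340.SigmaSpec
import Vale.Agent.P340.Morph

/-!
# P340: three reductions for the Barendregt-Geuvers-Klop conjecture, in one statement

1. Elimination of dependent rules in tiered pure type systems (sorts `0, ..., n - 1`, `ax k (k + 1)`,
   rules `i, j, j` for a downwards closed relation): strong normalization is equivalent to that of
   the non-dependent part, and the implication from weak to strong normalization for the
   non-dependent part gives it for the whole system.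
2. Stratified sums of a family of specifications over a partially ordered index set, with any family
   of added product rules `a, b, b` where `a` lies strictly below `b`: strongly normalizing iff
   all components are, and the implication is inherited from the components.
3. The implication holds for all specifications iff it holds for those with sorts `Fin n`.
-/

namespace Vale.Agent.Results.P340.ThreeReductions

open Vale.Agent.P340

universe u w

theorem of_fin (hfin : ∀ (n : ℕ) (P : Spec (Fin n)), WN P → SN P)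
    (S : Type u) (P : Spec S) (hWN : WN P) : SN P := by
  classical
  intro M hM hinf
  have hfs : ∃ F : Finset S, F.Nonempty ∧ Legal (P.restrict F) M := by
    obtain ⟨Γ, T, hd | hd⟩ := hM
    · obtain ⟨F, hne, hF⟩ := hd.exists_finset
      exact ⟨F, hne, Γ, T, Or.inl hF⟩
    · obtain ⟨F, hne, hF⟩ := hd.exists_finset
      exact ⟨F, hne, Γ, T, Or.inr hF⟩
  obtain ⟨F, ⟨s0, hs0⟩, hleg⟩ := hfs
  let e := F.equivFin
  let ι : Fin F.card → S := fun i => ((e.symm i : F) : S)
  let g : S → Fin F.card := fun s => if h : s ∈ F then e ⟨s, h⟩ else e ⟨s0, hs0⟩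
  have hιg : ∀ s ∈ F, ι (g s) = s := by
    intro s hs
    simp only [ι, g, dif_pos hs, Equiv.symm_apply_apply]
  let Pn : Spec (Fin F.card) :=
    ⟨fun i j => P.ax (ι i) (ι j), fun i j k => P.rule (ι i) (ι j) (ι k)⟩
  have hWNn : WN Pn := fun M' hM' =>
    HasNF.of_map ι (hWN _ (Legal.map (P := Pn) (P' := P) ι (fun _ _ h => h) (fun _ _ _ h => h) hM'))
  have hSNn : SN Pn := hfin _ Pn hWNn
  have hleg' : Legal Pn (Tm.map g M) := by
    refine Legal.map (P := P.restrict F) (P' := Pn) g ?_ ?_ hleg
    · intro a b h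
      change P.ax (ι (g a)) (ι (g b))
      rw [hιg a h.2.1, hιg b h.2.2]
      exact h.1
    · intro a b c h
      change P.rule (ι (g a)) (ι (g b)) (ι (g c))
      rw [hιg a h.2.1, hιg b h.2.2.1, hιg c h.2.2.2]
      exact h.1
  exact hSNn _ hleg' (hinf.map g)

theorem to_fin (hall : ∀ (S : Type u) (P : Spec S), WN P → SN P)
    (n : ℕ) (P : Spec (Fin n)) (hWN : WN P) : SN P := by
  let Q : Spec (ULift.{u} (Fin n)) :=
    ⟨fun i j => P.ax i.down j.down, fun i j k => P.rule i.down j.down k.down⟩
  have hWNQ : WN Q := fun M' hM' =>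
    HasNF.of_map ULift.down
      (hWN _ (Legal.map (P := Q) (P' := P) ULift.down (fun _ _ h => h) (fun _ _ _ h => h) hM'))
  have hSNQ : SN Q := hall _ Q hWNQ
  intro M hM hinf
  exact hSNQ _ (Legal.map (P := P) (P' := Q) ULift.up (fun _ _ h => h) (fun _ _ _ h => h) hM)
    (hinf.map ULift.up)

theorem result :
    (∀ (n : ℕ) (ρ : ℕ → ℕ → Prop), DownClosed ρ →
      (SN (tiered n ρ) ↔ SN (tiered n (nondep ρ))) ∧
        ((WN (tiered n (nondep ρ)) → SN (tiered n (nondep ρ))) →
          WN (tiered n ρ) → SN (tiered n ρ))) ∧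
    (∀ (I : Type w) [PartialOrder I] (S : I → Type u) (P : ∀ i, Spec (S i))
      (X : (Σ i, S i) → (Σ i, S i) → Prop),
      (SN (Spec.sigma P X) ↔ ∀ i, SN (P i)) ∧
        ((∀ i, WN (P i) → SN (P i)) → WN (Spec.sigma P X) → SN (Spec.sigma P X))) ∧
    ((∀ (S : Type u) (P : Spec S), WN P → SN P) ↔
      (∀ (n : ℕ) (P : Spec (Fin n)), WN P → SN P)) :=
  ⟨fun _ _ h => ⟨tiered_sn_iff h, tiered_bgk h⟩,
    fun _ _ _ P X => ⟨Spec.sigma_sn_iff P X, Spec.sigma_bgk P X⟩, to_fin, of_fin⟩

end Vale.Agent.Results.P340.ThreeReductions
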