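import Vale.Agent.P340.Dep.DepElim

/-!
# P340: elimination of dependent rules in tiered pure type systems

A tiered specification has the sorts `0, ..., n - 1`, with `ax k (k + 1)`, and rules `(i, j, j)`.
A rule is dependent if `i < j`.  If the set of rules is closed downwards, the specification is
strongly normalizing iff its non-dependent part is, and the implication from weak to strong
normalization for the non-dependent part gives the implication for the whole specification.
-/

namespace Vale.Agent.Results.P340.TieredDependency

open Vale.Agent.P340

theorem result (n : ℕ) (ρ : ℕ → ℕ → Prop) (h : DownClosed ρ) :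
    (SN (tiered n ρ) ↔ SN (tiered n (nondep ρ))) ∧
      ((WN (tiered n (nondep ρ)) → SN (tiered n (nondep ρ))) →
        WN (tiered n ρ) → SN (tiered n ρ)) :=
  ⟨tiered_sn_iff h, tiered_bgk h⟩

end Vale.Agent.Results.P340.TieredDependency
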